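import Mathlib

/-!
# P235-M, the static statement: the interval lemma and the one-sided maximal inequality
-/

open Finset

namespace Vale.Agent.P235.R2.H205

/-! ## The interval lemma -/

/-- The number of intervals `[j, r j)`, `j ∈ S`, which contain `i`. -/
def dep (S : Finset ℕ) (r : ℕ → ℕ) (i : ℕ) : ℕ := #{j ∈ S | j ≤ i ∧ i < r j}

theorem log_step {a : ℝ} (ha : 0 < a) : Real.log ((a + 1) / a) ≤ 1 / a := by
  have h := Real.log_le_sub_one_of_pos (x := (a + 1) / a) (by positivity)
  have e : (a + 1) / a - 1 = 1 / a := by field_simp; ring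
  linarith

/-- `∑_{s < n} 1 / (L + s) ≥ log ((L + n) / L)`. -/
theorem harm_ge {L : ℝ} (hL : 0 < L) (n : ℕ) :
    Real.log ((L + n) / L) ≤ ∑ s ∈ range n, 1 / (L + s) := by
  induction n with
  | zero => simp [hL.ne']
  | succ n ih =>
    rw [sum_range_succ]
    have hp : 0 < L + n := by positivity
    have e : (L + (n + 1 : ℕ)) / L = (L + n) / L * ((L + n + 1) / (L + n)) := by
      push_cast
      field_simp
      ring
    rw [e, Real.log_mul (by positivity) (by positivity)]
    have := log_step hp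
    linarith

/-- At a point `t` the masses `1 / (dep i + (t - i))` have sum at most `1`. -/
theorem mass_le (S B : Finset ℕ) (hB : B ⊆ S) (r : ℕ → ℕ) (t : ℕ) :
    ∑ i ∈ B with i ≤ t ∧ t < r i, 1 / ((dep S r i : ℝ) + ((t - i : ℕ) : ℝ)) ≤ 1 := by
  set A : Finset ℕ := {i ∈ S | i ≤ t ∧ t < r i} with hA
  rcases A.eq_empty_or_nonempty with h0 | h0
  · have e : ({i ∈ B | i ≤ t ∧ t < r i} : Finset ℕ) = ∅ := by
      refine eq_empty_of_forall_notMem fun i hi => ?_
      rw [mem_filter] at hi
      have : i ∈ A := by rw [hA, mem_filter]; exact ⟨hB hi.1, hi.2⟩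
      rw [h0] at this
      exact absurd this (notMem_empty i)
    rw [e]
    simp
  have hs : 0 < #A := card_pos.2 h0
  have key : ∀ i ∈ A, #A ≤ dep S r i + (t - i) := by
    intro i hi
    have hi' := hi
    rw [hA, mem_filter] at hi'
    have h1 : #{j ∈ A | j ≤ i} ≤ dep S r i := by
      refine card_le_card fun j hj => ?_
      rw [mem_filter, hA, mem_filter] at hj
      rw [mem_filter]
      exact ⟨hj.1.1, hj.2, by omega⟩
    have h2 : #{j ∈ A | ¬j ≤ i} ≤ t - i := by
      have h3 : ({j ∈ A | ¬j ≤ i} : Finset ℕ) ⊆ Ioc i t := by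
        intro j hj
        rw [mem_filter, hA, mem_filter] at hj
        rw [mem_Ioc]
        omega
      refine (card_le_card h3).trans ?_
      rw [Nat.card_Ioc]
    have h3 := card_filter_add_card_filter_not (s := A) fun j => j ≤ i
    omega
  calc ∑ i ∈ B with i ≤ t ∧ t < r i, 1 / ((dep S r i : ℝ) + ((t - i : ℕ) : ℝ))
      ≤ ∑ i ∈ A, 1 / ((dep S r i : ℝ) + ((t - i : ℕ) : ℝ)) := by
        refine sum_le_sum_of_subset_of_nonneg (fun i hi => ?_) fun i _ _ => by positivity
        rw [mem_filter] at hi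
        rw [hA, mem_filter]
        exact ⟨hB hi.1, hi.2⟩
    _ ≤ ∑ i ∈ A, 1 / (#A : ℝ) := by
        refine sum_le_sum fun i hi => ?_
        have h1 := key i hi
        have h2 : (#A : ℝ) ≤ (dep S r i : ℝ) + ((t - i : ℕ) : ℝ) := by exact_mod_cast h1
        exact one_div_le_one_div_of_le (by exact_mod_cast hs) h2
    _ = 1 := by
        rw [sum_const, nsmul_eq_mul]
        field_simp

/-- **The interval lemma.** -/
theorem interval_lemma (S : Finset ℕ) (r : ℕ → ℕ) (m : ℕ) (hm : ∀ i ∈ S, r i ≤ m) {C : ℝ}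
    (hC : 0 ≤ C) :
    (#{i ∈ S | i < r i ∧ C * dep S r i < ((r i - i : ℕ) : ℝ)} : ℝ) * Real.log (1 + C) ≤ m := by
  set B : Finset ℕ := {i ∈ S | i < r i ∧ C * dep S r i < ((r i - i : ℕ) : ℝ)} with hB
  have hBS : B ⊆ S := filter_subset _ _
  have lower : ∀ i ∈ B, Real.log (1 + C) ≤
      ∑ t ∈ range m with i ≤ t ∧ t < r i, 1 / ((dep S r i : ℝ) + ((t - i : ℕ) : ℝ)) := by
    intro i hi
    have hi' := hi
    rw [hB, mem_filter] at hi'
    obtain ⟨hiS, hir, hbad⟩ := hi'
    have hd : 0 < dep S r i := by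
      refine card_pos.2 ⟨i, ?_⟩
      rw [mem_filter]
      exact ⟨hiS, le_rfl, hir⟩
    have hd' : (0 : ℝ) < dep S r i := by exact_mod_cast hd
    have h1 := harm_ge hd' (r i - i)
    have e : ∑ t ∈ range m with i ≤ t ∧ t < r i, 1 / ((dep S r i : ℝ) + ((t - i : ℕ) : ℝ)) =
        ∑ s ∈ range (r i - i), 1 / ((dep S r i : ℝ) + s) := by
      refine sum_bij' (fun t _ => t - i) (fun s _ => s + i) ?_ ?_ ?_ ?_ ?_
      · intro t ht
        rw [mem_filter, mem_range] at ht
        rw [mem_range]
        omega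
      · intro s hs
        rw [mem_range] at hs
        rw [mem_filter, mem_range]
        have := hm i hiS
        omega
      · intro t ht
        rw [mem_filter] at ht
        omega
      · intro s _
        omega
      · intro t _
        rfl
    rw [e]
    refine le_trans (Real.log_le_log (by linarith) ?_) h1
    rw [le_div_iff₀ hd']
    nlinarith
  have h2 : (#B : ℝ) * Real.log (1 + C) ≤ ∑ i ∈ B,
      ∑ t ∈ range m with i ≤ t ∧ t < r i, 1 / ((dep S r i : ℝ) + ((t - i : ℕ) : ℝ)) := by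
    rw [← nsmul_eq_mul, ← sum_const]
    exact sum_le_sum lower
  refine h2.trans ?_
  have e : ∑ i ∈ B, ∑ t ∈ range m with i ≤ t ∧ t < r i,
      1 / ((dep S r i : ℝ) + ((t - i : ℕ) : ℝ)) =
      ∑ t ∈ range m, ∑ i ∈ B with i ≤ t ∧ t < r i,
      1 / ((dep S r i : ℝ) + ((t - i : ℕ) : ℝ)) := by
    simp only [sum_filter]
    exact sum_comm
  rw [e]
  calc ∑ t ∈ range m, ∑ i ∈ B with i ≤ t ∧ t < r i,
      1 / ((dep S r i : ℝ) + ((t - i : ℕ) : ℝ)) ≤ ∑ _t ∈ range m, (1 : ℝ) :=
        sum_le_sum fun t _ => mass_le S B hBS r t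
    _ = m := by simp

/-! ## The one-sided maximal inequality -/

/-- The points `x` which end an interval `(y, x]` more than half of which lies in `X`. -/
def Hv (X : Finset ℕ) (x : ℕ) : Prop := ∃ y, y < x ∧ x - y < 2 * #{i ∈ X | y < i ∧ i ≤ x}

open Classical in
/-- **The one-sided maximal inequality.** -/
theorem maximal (X : Finset ℕ) (N : ℕ) :
    #{x ∈ Ioc 0 N | Hv X x} ≤ 2 * #{i ∈ X | 0 < i ∧ i ≤ N} := by
  induction N using Nat.strong_induction_on with
  | _ N ih =>
    rcases Nat.eq_zero_or_pos N with rfl | hN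
    · simp
    by_cases h : Hv X N
    · obtain ⟨y, hy, hx⟩ := h
      have h1 := ih y hy
      have h2 : ({x ∈ Ioc 0 N | Hv X x} : Finset ℕ) ⊆ {x ∈ Ioc 0 y | Hv X x} ∪ Ioc y N := by
        intro x hx
        rw [mem_filter, mem_Ioc] at hx
        rw [mem_union, mem_filter, mem_Ioc, mem_Ioc]
        by_cases hxy : x ≤ y
        · exact Or.inl ⟨⟨hx.1.1, hxy⟩, hx.2⟩
        · exact Or.inr ⟨by omega, hx.1.2⟩
      have h3 := (card_le_card h2).trans (card_union_le _ _)
      rw [Nat.card_Ioc] at h3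
      have h4 : #{i ∈ X | 0 < i ∧ i ≤ N} =
          #{i ∈ X | 0 < i ∧ i ≤ y} + #{i ∈ X | y < i ∧ i ≤ N} := by
        rw [← card_union_of_disjoint]
        · congr 1
          ext i
          simp only [mem_filter, mem_union]
          constructor
          · rintro ⟨a, b, c⟩
            by_cases hi : i ≤ y
            · exact Or.inl ⟨a, b, hi⟩
            · exact Or.inr ⟨a, by omega, c⟩
          · rintro (⟨a, b, c⟩ | ⟨a, b, c⟩)
            · exact ⟨a, b, by omega⟩
            · exact ⟨a, by omega, c⟩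
        · rw [disjoint_left]
          intro i hi hi'
          rw [mem_filter] at hi hi'
          omega
      omega
    · have h1 := ih (N - 1) (by omega)
      have h2 : ({x ∈ Ioc 0 N | Hv X x} : Finset ℕ) ⊆ {x ∈ Ioc 0 (N - 1) | Hv X x} := by
        intro x hx
        rw [mem_filter, mem_Ioc] at hx
        rw [mem_filter, mem_Ioc]
        refine ⟨⟨hx.1.1, ?_⟩, hx.2⟩
        by_contra hc
        have : x = N := by omega
        rw [this] at hx
        exact h hx.2
      have h3 : ({i ∈ X | 0 < i ∧ i ≤ N - 1} : Finset ℕ) ⊆ {i ∈ X | 0 < i ∧ i ≤ N} := by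
        intro i hi
        rw [mem_filter] at hi ⊢
        exact ⟨hi.1, hi.2.1, by omega⟩
      have := card_le_card h2
      have := card_le_card h3
      omega

end Vale.Agent.P235.R2.H205
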